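import Vale.Agent.P154.KS.Final
import Vale.Agent.P154.Hel.CornerFinal
import Vale.Agent.P154.Q4.BB.Final

/-!
The top level of the threshold for `q = 3, 4`: what remains are the three critical statements of the corner.
-/

namespace Vale.Agent.P154.KS

open Filter Topology

theorem potts34_dichotomy_of_critical (h4 : Tendsto (reconA 3 4 (-(1 / 2))) atTop (𝓝 0))
    (h5 : Tendsto (reconA 3 5 (-Real.sqrt (1 / 5))) atTop (𝓝 0))
    (hc : ∀ t : ℝ, 3345 / 8192 < t → t ≤ 1 / 2 →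
      Tendsto (gwA 3 (poissonWeight (1 / t ^ 2)) (-t)) atTop (𝓝 0)) :
    Dichotomy 3 (-(1 / 2)) ∧ Dichotomy 4 0 := by
  obtain ⟨h3R, h3P⟩ := Hel.potts3_all_of_critical h4 h5 hc
  obtain ⟨h4R, h4P⟩ := Q4.BB.potts4_all
  refine ⟨dichotomy_of_nonrecon (by norm_num) (by norm_num) h3R h3P,
    dichotomy_of_nonrecon (by norm_num) (by norm_num) h4R h4P⟩

end Vale.Agent.P154.KS
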