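import Vale.Agent.P154.GWDefs

/-!
The Kesten-Stigum bound for the Potts channel, by the second moment of the count statistic:
the moments of a statistic on a family of likelihoods, and how they pass through the channel and
through products.
-/

namespace Vale.Agent.P154

namespace KS

noncomputable section

open Finset

variable {q : ℕ}

/-- The centred indicator of the spin `e`. -/
def gv (q : ℕ) (e i : Fin q) : ℝ := (if i = e then 1 else 0) - 1 / (q : ℝ)

theorem q_pos (e : Fin q) : (0 : ℝ) < q := by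
  have := e.pos
  exact_mod_cast this

theorem sum_const_inv (e : Fin q) : ∑ _i : Fin q, (1 / (q : ℝ)) = 1 := by
  have h := (q_pos e).ne'
  simp only [Finset.sum_const, Finset.card_univ, Fintype.card_fin, nsmul_eq_mul]
  field_simp

theorem sum_gv (e : Fin q) : ∑ i, gv q e i = 0 := by
  unfold gv
  rw [Finset.sum_sub_distrib, sum_const_inv e]
  simp

/-- The variance of the centred indicator under the uniform law. -/
def vv (q : ℕ) (e : Fin q) : ℝ := (1 / (q : ℝ)) * ∑ i, (gv q e i) ^ 2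

theorem sum_gv_sq (e : Fin q) : ∑ i, (gv q e i) ^ 2 = gv q e e := by
  have h1 : ∀ i, (gv q e i) ^ 2 = (if i = e then gv q e i else 0) - (1 / (q : ℝ)) * gv q e i := by
    intro i
    by_cases h : i = e
    · subst h
      simp only [if_true]
      have : gv q i i = 1 - 1 / (q : ℝ) := by simp [gv]
      rw [this]
      ring
    · have : gv q e i = 0 - 1 / (q : ℝ) := by simp [gv, h]
      simp only [if_neg h]
      rw [this]
      ring
  simp only [h1]
  rw [Finset.sum_sub_distrib, ← Finset.mul_sum, sum_gv e]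
  simp

theorem vv_eq (e : Fin q) : vv q e = (1 / (q : ℝ)) * gv q e e := by
  unfold vv
  rw [sum_gv_sq]

theorem vv_pos (hq : 2 ≤ q) (e : Fin q) : 0 < vv q e := by
  rw [vv_eq]
  have h0 := q_pos e
  have h2 : (2 : ℝ) ≤ q := by exact_mod_cast hq
  have : gv q e e = 1 - 1 / (q : ℝ) := by simp [gv]
  rw [this]
  have h3 : 1 / (q : ℝ) ≤ 1 / 2 := one_div_le_one_div_of_le (by norm_num) h2
  have h4 : 0 < 1 / (q : ℝ) := by positivity
  apply mul_pos h4
  linarith

/-! ### The channel -/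

theorem chan_sum_right (e : Fin q) (lam : ℝ) (i : Fin q) : ∑ j, pottsChannel q lam i j = 1 := by
  unfold pottsChannel
  have h := (q_pos e).ne'
  rw [Finset.sum_add_distrib]
  simp only [Finset.sum_const, Finset.card_univ, Fintype.card_fin, nsmul_eq_mul, ← Finset.mul_sum]
  simp only [Finset.sum_ite_eq, Finset.mem_univ, if_true]
  field_simp
  ring

theorem chan_sum_left (e : Fin q) (lam : ℝ) (j : Fin q) : ∑ i, pottsChannel q lam i j = 1 := by
  unfold pottsChannel
  have h := (q_pos e).ne'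
  rw [Finset.sum_add_distrib]
  simp only [Finset.sum_const, Finset.card_univ, Fintype.card_fin, nsmul_eq_mul, ← Finset.mul_sum]
  simp only [Finset.sum_ite_eq', Finset.mem_univ, if_true]
  field_simp
  ring

theorem chan_gv (e : Fin q) (lam : ℝ) (i : Fin q) :
    ∑ j, pottsChannel q lam i j * gv q e j = lam * gv q e i := by
  unfold pottsChannel
  simp only [add_mul, Finset.sum_add_distrib, mul_assoc, ← Finset.mul_sum, sum_gv e, mul_zero,
    add_zero]
  congr 1
  simp only [ite_mul, one_mul, zero_mul, Finset.sum_ite_eq, Finset.mem_univ, if_true]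

theorem chan_nonneg (hq : 2 ≤ q) {lam : ℝ} (h0 : -(1 / ((q : ℝ) - 1)) ≤ lam) (h1 : lam ≤ 1)
    (i j : Fin q) : 0 ≤ pottsChannel q lam i j := by
  unfold pottsChannel
  have h2 : (2 : ℝ) ≤ q := by exact_mod_cast hq
  have hq0 : (0 : ℝ) < q := by linarith
  have hq1 : (0 : ℝ) < (q : ℝ) - 1 := by linarith
  by_cases h : i = j
  · simp only [if_pos h, mul_one]
    have h3 : -1 ≤ lam * ((q : ℝ) - 1) := by
      have := mul_le_mul_of_nonneg_right h0 hq1.le
      rw [neg_mul, one_div, inv_mul_cancel₀ hq1.ne'] at this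
      exact this
    have e1 : lam + (1 - lam) / (q : ℝ) = (1 + lam * ((q : ℝ) - 1)) / q := by
      field_simp
      ring
    rw [e1]
    apply div_nonneg _ hq0.le
    linarith
  · simp only [if_neg h, mul_zero, zero_add]
    exact div_nonneg (by linarith) hq0.le

/-- A family of likelihoods with a statistic, and its first two moments. -/
structure Sys (e : Fin q) {Ω : Type} [Fintype Ω] (L : Ω → Fin q → ℝ) (f : Ω → ℝ) (A B : ℝ) :
    Prop where
  nonneg : ∀ ω i, 0 ≤ L ω i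
  norm : ∀ i, ∑ ω, L ω i = 1
  m1 : ∀ i, ∑ ω, L ω i * f ω = A * gv q e i
  m2 : (1 / (q : ℝ)) * ∑ i, ∑ ω, L ω i * (f ω) ^ 2 = B

/-- The likelihoods after the channel. -/
def chL (lam : ℝ) {Ω : Type} (L : Ω → Fin q → ℝ) : Ω → Fin q → ℝ :=
  fun ω i => ∑ j, pottsChannel q lam i j * L ω j

theorem sum_chL (lam : ℝ) {Ω : Type} [Fintype Ω] (L : Ω → Fin q → ℝ) (h : Ω → ℝ) (i : Fin q) :
    ∑ ω, chL lam L ω i * h ω = ∑ j, pottsChannel q lam i j * ∑ ω, L ω j * h ω := by
  unfold chL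
  simp only [Finset.sum_mul, Finset.mul_sum]
  rw [Finset.sum_comm]
  refine Finset.sum_congr rfl fun j _ => Finset.sum_congr rfl fun ω _ => ?_
  ring

/-! ### Products -/

section Pi

variable {k : ℕ} {Ω : Fin k → Type} [∀ c, Fintype (Ω c)]

theorem sum_pi_prod (u : ∀ c, Ω c → ℝ) :
    ∑ τ : (∀ c, Ω c), ∏ c, u c (τ c) = ∏ c, ∑ ω, u c ω := by
  rw [Finset.prod_univ_sum, Fintype.piFinset_univ]

/-- Integrating one coordinate against a normalised product. -/
theorem sum_pi_one (L : ∀ c, Ω c → ℝ) (hL : ∀ c, ∑ ω, L c ω = 1) (h : ∀ c, Ω c → ℝ) (c0 : Fin k) :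
    ∑ τ : (∀ c, Ω c), (∏ c, L c (τ c)) * h c0 (τ c0) = ∑ ω, L c0 ω * h c0 ω := by
  have e1 : ∀ τ : (∀ c, Ω c), (∏ c, L c (τ c)) * h c0 (τ c0)
      = ∏ c, (L c (τ c) * (if c = c0 then h c (τ c) else 1)) := by
    intro τ
    rw [Finset.prod_mul_distrib, Finset.prod_ite_eq' Finset.univ c0]
    simp
  simp only [e1]
  rw [sum_pi_prod (fun c ω => L c ω * (if c = c0 then h c ω else 1))]
  have e2 : ∀ c, ∑ ω, L c ω * (if c = c0 then h c ω else 1)
      = if c = c0 then ∑ ω, L c ω * h c ω else 1 := by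
    intro c
    by_cases hc : c = c0
    · simp [hc]
    · simp [hc, hL c]
  simp only [e2]
  rw [Finset.prod_ite_eq' Finset.univ c0]
  simp

/-- Integrating two different coordinates against a normalised product. -/
theorem sum_pi_two (L : ∀ c, Ω c → ℝ) (hL : ∀ c, ∑ ω, L c ω = 1) (h : ∀ c, Ω c → ℝ) {c0 c1 : Fin k}
    (hne : c0 ≠ c1) :
    ∑ τ : (∀ c, Ω c), (∏ c, L c (τ c)) * (h c0 (τ c0) * h c1 (τ c1))
      = (∑ ω, L c0 ω * h c0 ω) * ∑ ω, L c1 ω * h c1 ω := by
  have e1 : ∀ τ : (∀ c, Ω c), (∏ c, L c (τ c)) * (h c0 (τ c0) * h c1 (τ c1))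
      = ∏ c, (L c (τ c) * ((if c = c0 then h c (τ c) else 1) * (if c = c1 then h c (τ c) else 1))) := by
    intro τ
    rw [Finset.prod_mul_distrib, Finset.prod_mul_distrib, Finset.prod_ite_eq' Finset.univ c0,
      Finset.prod_ite_eq' Finset.univ c1]
    simp
  simp only [e1]
  rw [sum_pi_prod (fun c ω => L c ω * ((if c = c0 then h c ω else 1) * (if c = c1 then h c ω else 1)))]
  have e2 : ∀ c, ∑ ω, L c ω * ((if c = c0 then h c ω else 1) * (if c = c1 then h c ω else 1))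
      = (if c = c0 then ∑ ω, L c ω * h c ω else 1) * (if c = c1 then ∑ ω, L c ω * h c ω else 1) := by
    intro c
    by_cases hc : c = c0
    · have hc' : c ≠ c1 := by rw [hc]; exact hne
      simp [hc, hne]
    · by_cases hc1 : c = c1
      · simp [hc1, Ne.symm hne]
      · simp [hc, hc1, hL c]
  simp only [e2]
  rw [Finset.prod_mul_distrib, Finset.prod_ite_eq' Finset.univ c0, Finset.prod_ite_eq' Finset.univ c1]
  simp

/-- The sum over ordered pairs of different indices. -/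
def pairs (A : Fin k → ℝ) : ℝ := ∑ c, ∑ c', if c = c' then 0 else A c * A c'

/-- The moments of a sum of independent statistics. -/
theorem sum_pi_sq (L : ∀ c, Ω c → ℝ) (hL : ∀ c, ∑ ω, L c ω = 1) (f : ∀ c, Ω c → ℝ) :
    ∑ τ : (∀ c, Ω c), (∏ c, L c (τ c)) * (∑ c, f c (τ c)) ^ 2
      = ∑ c, ∑ ω, L c ω * (f c ω) ^ 2
        + pairs (fun c => ∑ ω, L c ω * f c ω) := by
  have e1 : ∀ τ : (∀ c, Ω c), (∏ c, L c (τ c)) * (∑ c, f c (τ c)) ^ 2
      = ∑ c, (∏ c, L c (τ c)) * (f c (τ c)) ^ 2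
        + ∑ c, ∑ c', if c = c' then 0 else (∏ c, L c (τ c)) * (f c (τ c) * f c' (τ c')) := by
    intro τ
    rw [sq, Finset.sum_mul_sum, Finset.mul_sum, ← Finset.sum_add_distrib]
    refine Finset.sum_congr rfl fun c _ => ?_
    rw [Finset.mul_sum]
    have h3 : ∀ G : Fin k → ℝ, ∑ c', G c' = G c + ∑ c', (if c = c' then 0 else G c') := by
      intro G
      rw [← Finset.add_sum_erase Finset.univ G (Finset.mem_univ c),
        ← Finset.add_sum_erase Finset.univ (fun c' => if c = c' then (0 : ℝ) else G c')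
          (Finset.mem_univ c)]
      simp only [if_true, zero_add]
      congr 1
      refine Finset.sum_congr rfl fun c' hc' => ?_
      rw [if_neg (Finset.ne_of_mem_erase hc').symm]
    rw [h3 (fun c' => (∏ c, L c (τ c)) * (f c (τ c) * f c' (τ c')))]
    congr 1
    ring
  simp only [e1]
  rw [Finset.sum_add_distrib]
  congr 1
  · rw [Finset.sum_comm]
    refine Finset.sum_congr rfl fun c _ => ?_
    exact sum_pi_one L hL (fun c ω => (f c ω) ^ 2) c
  · unfold pairs
    rw [Finset.sum_comm]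
    refine Finset.sum_congr rfl fun c _ => ?_
    rw [Finset.sum_comm]
    refine Finset.sum_congr rfl fun c' _ => ?_
    by_cases hc : c = c'
    · simp [hc]
    · simp only [if_neg hc]
      exact sum_pi_two L hL f hc

theorem sum_pi_lin (L : ∀ c, Ω c → ℝ) (hL : ∀ c, ∑ ω, L c ω = 1) (f : ∀ c, Ω c → ℝ) :
    ∑ τ : (∀ c, Ω c), (∏ c, L c (τ c)) * (∑ c, f c (τ c)) = ∑ c, ∑ ω, L c ω * f c ω := by
  simp only [Finset.mul_sum]
  rw [Finset.sum_comm]
  refine Finset.sum_congr rfl fun c _ => ?_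
  exact sum_pi_one L hL f c

theorem sum_pi_norm (L : ∀ c, Ω c → ℝ) (hL : ∀ c, ∑ ω, L c ω = 1) :
    ∑ τ : (∀ c, Ω c), ∏ c, L c (τ c) = 1 := by
  rw [sum_pi_prod]
  simp [hL]

theorem pairs_mul (a : ℝ) (A : Fin k → ℝ) : pairs (fun c => a * A c) = a ^ 2 * pairs A := by
  unfold pairs
  simp only [Finset.mul_sum]
  refine Finset.sum_congr rfl fun c _ => Finset.sum_congr rfl fun c' _ => ?_
  split_ifs
  · simp
  · ring

theorem pairs_nonneg {A : Fin k → ℝ} (h : ∀ c, 0 ≤ A c) : 0 ≤ pairs A := by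
  unfold pairs
  refine Finset.sum_nonneg fun c _ => Finset.sum_nonneg fun c' _ => ?_
  split_ifs
  · exact le_rfl
  · exact mul_nonneg (h c) (h c')

/-- A node of the tree: the children pass through the channel, the statistics add up. -/
theorem Sys.node (e : Fin q) (hq : 2 ≤ q) {lam : ℝ} (h0 : -(1 / ((q : ℝ) - 1)) ≤ lam) (h1 : lam ≤ 1)
    {σ : ℝ} (hσ : σ * lam = |lam|) (hσ2 : σ ^ 2 = 1)
    {L : ∀ c, Ω c → Fin q → ℝ} {f : ∀ c, Ω c → ℝ} {A B : Fin k → ℝ}
    (h : ∀ c, Sys e (L c) (f c) (A c) (B c)) :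
    Sys e (fun (τ : ∀ c, Ω c) i => ∏ c, chL lam (L c) (τ c) i)
      (fun τ => σ * ∑ c, f c (τ c)) (|lam| * ∑ c, A c)
      (∑ c, B c + vv q e * lam ^ 2 * pairs A) := by
  have hn : ∀ (i : Fin q) (c : Fin k), ∑ ω, chL lam (L c) ω i = 1 := by
    intro i c
    have := sum_chL lam (L c) (fun _ => 1) i
    simp only [mul_one] at this
    rw [this]
    simp only [(h c).norm, mul_one]
    exact chan_sum_right e lam i
  have hm : ∀ (i : Fin q) (c : Fin k), ∑ ω, chL lam (L c) ω i * f c ω = lam * A c * gv q e i := by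
    intro i c
    rw [sum_chL]
    simp only [(h c).m1]
    have : ∀ j, pottsChannel q lam i j * (A c * gv q e j)
        = A c * (pottsChannel q lam i j * gv q e j) := fun j => by ring
    simp only [this]
    rw [← Finset.mul_sum, chan_gv]
    ring
  refine ⟨fun τ i => Finset.prod_nonneg fun c _ => Finset.sum_nonneg fun j _ =>
      mul_nonneg (chan_nonneg hq h0 h1 i j) ((h c).nonneg _ j), fun i => ?_, fun i => ?_, ?_⟩
  · exact sum_pi_norm (fun c ω => chL lam (L c) ω i) (hn i)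
  · have e1 : ∀ τ : (∀ c, Ω c), (∏ c, chL lam (L c) (τ c) i) * (σ * ∑ c, f c (τ c))
        = σ * ((∏ c, chL lam (L c) (τ c) i) * ∑ c, f c (τ c)) := fun τ => by ring
    simp only [e1]
    rw [← Finset.mul_sum, sum_pi_lin (fun c ω => chL lam (L c) ω i) (hn i)]
    simp only [hm]
    rw [← Finset.sum_mul, ← Finset.mul_sum, ← hσ]
    ring
  · have e1 : ∀ (i : Fin q) (τ : ∀ c, Ω c), (∏ c, chL lam (L c) (τ c) i) * (σ * ∑ c, f c (τ c)) ^ 2
        = (∏ c, chL lam (L c) (τ c) i) * (∑ c, f c (τ c)) ^ 2 := by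
      intro i τ
      rw [mul_pow, hσ2, one_mul]
    simp only [e1]
    have e2 : ∀ i : Fin q, ∑ τ : (∀ c, Ω c), (∏ c, chL lam (L c) (τ c) i) * (∑ c, f c (τ c)) ^ 2
        = ∑ c, ∑ ω, chL lam (L c) ω i * (f c ω) ^ 2 + lam ^ 2 * pairs A * (gv q e i) ^ 2 := by
      intro i
      rw [sum_pi_sq (fun c ω => chL lam (L c) ω i) (hn i) f]
      congr 1
      simp only [hm]
      have : (fun c => lam * A c * gv q e i) = fun c => (lam * gv q e i) * A c := by
        funext c
        ring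
      rw [this, pairs_mul]
      ring
    simp only [e2]
    rw [Finset.sum_add_distrib, mul_add]
    congr 1
    · rw [Finset.sum_comm, Finset.mul_sum]
      refine Finset.sum_congr rfl fun c _ => ?_
      rw [← (h c).m2]
      congr 1
      simp only [sum_chL]
      rw [Finset.sum_comm]
      refine Finset.sum_congr rfl fun j _ => ?_
      rw [← Finset.sum_mul, chan_sum_left e, one_mul]
    · rw [← Finset.mul_sum]
      unfold vv
      ring

end Pi

/-- The leaf. -/
theorem Sys.leaf (e : Fin q) :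
    Sys e (fun (τ : Fin q) i => if τ = i then (1 : ℝ) else 0) (fun τ => gv q e τ) 1 (vv q e) := by
  refine ⟨fun τ i => ?_, fun i => ?_, fun i => ?_, ?_⟩
  · split_ifs <;> norm_num
  · simp
  · simp
  · unfold vv
    congr 1
    refine Finset.sum_congr rfl fun i _ => ?_
    simp

/-! ### The lower bound -/

/-- The marginal of a family of likelihoods. -/
def spOf {Ω : Type} (L : Ω → Fin q → ℝ) (ω : Ω) : ℝ := ∑ i : Fin q, (1 / (q : ℝ)) * L ω i

/-- The quantity `a_n` of a family of likelihoods. -/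
def aOf {Ω : Type} [Fintype Ω] (L : Ω → Fin q → ℝ) : ℝ :=
  ∑ ω, spOf L ω * ((1 / 2) * ∑ i : Fin q, |(1 / (q : ℝ)) * L ω i / spOf L ω - 1 / (q : ℝ)|)

theorem spOf_nonneg {Ω : Type} {L : Ω → Fin q → ℝ} (hL : ∀ ω i, 0 ≤ L ω i) (ω : Ω) :
    0 ≤ spOf L ω :=
  Finset.sum_nonneg fun i _ => mul_nonneg (by positivity) (hL ω i)

theorem aOf_nonneg {Ω : Type} [Fintype Ω] {L : Ω → Fin q → ℝ} (hL : ∀ ω i, 0 ≤ L ω i) :
    0 ≤ aOf L := by
  refine Finset.sum_nonneg fun ω _ => mul_nonneg (spOf_nonneg hL ω) ?_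
  exact mul_nonneg (by norm_num) (Finset.sum_nonneg fun i _ => abs_nonneg _)

/-- The term at `ω` dominates the defect of the coordinate `e`. -/
theorem term_ge (e : Fin q) {x : Fin q → ℝ} (hx : ∀ i, 0 ≤ x i) :
    |(1 / (q : ℝ)) * x e - (1 / (q : ℝ)) * ∑ i, (1 / (q : ℝ)) * x i|
      ≤ (∑ i, (1 / (q : ℝ)) * x i)
        * ((1 / 2) * ∑ i, |(1 / (q : ℝ)) * x i / (∑ i, (1 / (q : ℝ)) * x i) - 1 / (q : ℝ)|) := by
  have hq := q_pos e
  obtain ⟨s, hs⟩ : ∃ s, s = ∑ i, (1 / (q : ℝ)) * x i := ⟨_, rfl⟩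
  rw [← hs]
  have hs0 : 0 ≤ s := by
    rw [hs]
    exact Finset.sum_nonneg fun i _ => mul_nonneg (by positivity) (hx i)
  rcases eq_or_lt_of_le hs0 with h0 | h0
  · have h1 : (1 / (q : ℝ)) * x e = 0 := by
      have h2 := (Finset.sum_eq_zero_iff_of_nonneg
        (fun i _ => mul_nonneg (by positivity : (0 : ℝ) ≤ 1 / (q : ℝ)) (hx i))).1 (by rw [← hs, ← h0])
      exact h2 e (Finset.mem_univ e)
    rw [h1, ← h0]
    simp
  · have e1 : ∀ i, s * |(1 / (q : ℝ)) * x i / s - 1 / (q : ℝ)|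
        = |(1 / (q : ℝ)) * x i - (1 / (q : ℝ)) * s| := by
      intro i
      have : (1 / (q : ℝ)) * x i - (1 / (q : ℝ)) * s = s * ((1 / (q : ℝ)) * x i / s - 1 / (q : ℝ)) := by
        field_simp
      rw [this, abs_mul, abs_of_pos h0]
    have e2 : s * ((1 / 2) * ∑ i, |(1 / (q : ℝ)) * x i / s - 1 / (q : ℝ)|)
        = (1 / 2) * ∑ i, |(1 / (q : ℝ)) * x i - (1 / (q : ℝ)) * s| := by
      rw [← mul_assoc, mul_comm s, mul_assoc, Finset.mul_sum]
      congr 1
      exact Finset.sum_congr rfl fun i _ => e1 i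
    rw [e2]
    obtain ⟨r, hr⟩ : ∃ r : Fin q → ℝ, r = fun i => (1 / (q : ℝ)) * x i - (1 / (q : ℝ)) * s := ⟨_, rfl⟩
    have hr0 : ∑ i, r i = 0 := by
      rw [hr, Finset.sum_sub_distrib, ← hs, ← Finset.sum_mul, sum_const_inv e]
      ring
    have hr1 : ∑ i ∈ Finset.univ.erase e, r i = - r e := by
      have := Finset.add_sum_erase Finset.univ r (Finset.mem_univ e)
      linarith
    have hr2 : |r e| ≤ ∑ i ∈ Finset.univ.erase e, |r i| := by
      rw [← abs_neg, ← hr1]
      exact Finset.abs_sum_le_sum_abs _ _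
    have hr3 : ∑ i, |r i| = |r e| + ∑ i ∈ Finset.univ.erase e, |r i| :=
      (Finset.add_sum_erase Finset.univ (fun i => |r i|) (Finset.mem_univ e)).symm
    have hr4 : |(1 / (q : ℝ)) * x e - (1 / (q : ℝ)) * s| = |r e| := by rw [hr]
    have hr5 : ∑ i, |(1 / (q : ℝ)) * x i - (1 / (q : ℝ)) * s| = ∑ i, |r i| := by rw [hr]
    rw [hr4, hr5, hr3]
    linarith

/-- The Kesten-Stigum inequality at one level. -/
theorem Sys.lower {e : Fin q} {Ω : Type} [Fintype Ω] {L : Ω → Fin q → ℝ} {f : Ω → ℝ} {A B : ℝ}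
    (h : Sys e L f A B) {t : ℝ} (ht : 0 < t) :
    vv q e * |A| ≤ (t / 2) * B + (1 / (2 * t)) * aOf L := by
  have hq := q_pos e
  obtain ⟨r, hr⟩ : ∃ r : Ω → ℝ, r = fun ω => (1 / (q : ℝ)) * L ω e - (1 / (q : ℝ)) * spOf L ω :=
    ⟨_, rfl⟩
  have hsp : ∀ ω, 0 ≤ spOf L ω := spOf_nonneg h.nonneg
  have hr1 : ∀ ω, |r ω| ≤ spOf L ω := by
    intro ω
    have h1 : (1 / (q : ℝ)) * L ω e ≤ spOf L ω := by
      unfold spOf
      exact Finset.single_le_sum (f := fun i => (1 / (q : ℝ)) * L ω i)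
        (fun i _ => mul_nonneg (by positivity) (h.nonneg ω i)) (Finset.mem_univ e)
    have h2 : 0 ≤ (1 / (q : ℝ)) * L ω e := mul_nonneg (by positivity) (h.nonneg ω e)
    have h3 : (1 / (q : ℝ)) * spOf L ω ≤ spOf L ω := by
      have h4 : 1 / (q : ℝ) ≤ 1 := by
        rw [div_le_one hq]
        have := e.pos
        exact_mod_cast this
      exact mul_le_of_le_one_left (hsp ω) h4
    have h5 : 0 ≤ (1 / (q : ℝ)) * spOf L ω := mul_nonneg (by positivity) (hsp ω)
    rw [hr, abs_le]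
    constructor <;> simp only <;> linarith
  have hr2 : ∑ ω, f ω * r ω = vv q e * A := by
    rw [hr]
    simp only [mul_sub, Finset.sum_sub_distrib]
    have e1 : ∑ ω, f ω * ((1 / (q : ℝ)) * L ω e) = (1 / (q : ℝ)) * (A * gv q e e) := by
      rw [← h.m1 e, Finset.mul_sum]
      exact Finset.sum_congr rfl fun ω _ => by ring
    have e2 : ∑ ω, f ω * ((1 / (q : ℝ)) * spOf L ω) = 0 := by
      have e3 : ∀ ω, f ω * ((1 / (q : ℝ)) * spOf L ω)
          = ∑ i, (1 / (q : ℝ)) * (1 / (q : ℝ)) * (L ω i * f ω) := by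
        intro ω
        unfold spOf
        rw [Finset.mul_sum, Finset.mul_sum]
        exact Finset.sum_congr rfl fun i _ => by ring
      simp only [e3]
      rw [Finset.sum_comm]
      simp only [← Finset.mul_sum, h.m1]
      rw [sum_gv e]
      ring
    rw [e1, e2, vv_eq]
    ring
  have hr3 : ∀ ω, |f ω * r ω| ≤ (t / 2) * (spOf L ω * (f ω) ^ 2) + (1 / (2 * t)) * |r ω| := by
    intro ω
    obtain ⟨x, hx⟩ : ∃ x, x = |f ω| := ⟨_, rfl⟩
    obtain ⟨y, hy⟩ : ∃ y, y = |r ω| := ⟨_, rfl⟩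
    have hx0 : 0 ≤ x := by rw [hx]; exact abs_nonneg _
    have hy0 : 0 ≤ y := by rw [hy]; exact abs_nonneg _
    rw [abs_mul, ← hx, ← hy, ← sq_abs (f ω), ← hx]
    have h1 : y ≤ spOf L ω := by rw [hy]; exact hr1 ω
    have h2 : (t / 2) * (y * x ^ 2) ≤ (t / 2) * (spOf L ω * x ^ 2) := by
      apply mul_le_mul_of_nonneg_left _ (by positivity)
      exact mul_le_mul_of_nonneg_right h1 (by positivity)
    have h3 : x * y ≤ (t / 2) * (y * x ^ 2) + (1 / (2 * t)) * y := by
      have h4 : 0 ≤ (y / (2 * t)) * (t * x - 1) ^ 2 := by positivity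
      have e1 : (y / (2 * t)) * (t * x - 1) ^ 2 = (t / 2) * (y * x ^ 2) + (1 / (2 * t)) * y - x * y := by
        field_simp
        ring
      linarith
    linarith
  have hB : ∑ ω, spOf L ω * (f ω) ^ 2 = B := by
    rw [← h.m2, Finset.mul_sum]
    unfold spOf
    simp only [Finset.sum_mul]
    rw [Finset.sum_comm]
    refine Finset.sum_congr rfl fun i _ => ?_
    rw [Finset.mul_sum]
    exact Finset.sum_congr rfl fun ω _ => by ring
  have hA : ∑ ω, |r ω| ≤ aOf L := by
    refine Finset.sum_le_sum fun ω _ => ?_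
    rw [hr]
    exact term_ge e (fun i => h.nonneg ω i)
  have hv0 : 0 ≤ vv q e := by
    rw [vv_eq]
    have : gv q e e = 1 - 1 / (q : ℝ) := by simp [gv]
    rw [this]
    apply mul_nonneg (by positivity)
    have h4 : 1 / (q : ℝ) ≤ 1 := by
      rw [div_le_one hq]
      have := e.pos
      exact_mod_cast this
    linarith
  calc vv q e * |A| = |vv q e * A| := by rw [abs_mul, abs_of_nonneg hv0]
    _ = |∑ ω, f ω * r ω| := by rw [hr2]
    _ ≤ ∑ ω, |f ω * r ω| := Finset.abs_sum_le_sum_abs _ _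
    _ ≤ ∑ ω, ((t / 2) * (spOf L ω * (f ω) ^ 2) + (1 / (2 * t)) * |r ω|) :=
        Finset.sum_le_sum fun ω _ => hr3 ω
    _ = (t / 2) * B + (1 / (2 * t)) * ∑ ω, |r ω| := by
        rw [Finset.sum_add_distrib, ← Finset.mul_sum, ← Finset.mul_sum, hB]
    _ ≤ (t / 2) * B + (1 / (2 * t)) * aOf L := by
        have : 0 ≤ 1 / (2 * t) := by positivity
        nlinarith

/-- The sign of the channel. -/
def sgn (lam : ℝ) : ℝ := if 0 ≤ lam then 1 else -1

theorem sgn_mul (lam : ℝ) : sgn lam * lam = |lam| := by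
  unfold sgn
  split_ifs with h
  · rw [one_mul, abs_of_nonneg h]
  · rw [abs_of_neg (not_le.1 h)]
    ring

theorem sgn_sq (lam : ℝ) : (sgn lam) ^ 2 = 1 := by
  unfold sgn
  split_ifs <;> norm_num

/-- From a bound of the second moment by the square of the first moment. -/
theorem lower_of_bound {v μ β C a : ℝ} (hv : 0 < v) (hμ : 0 < μ) (hC : 0 < C) (hβ : β ≤ C * μ ^ 2)
    (h : ∀ t : ℝ, 0 < t → v * μ ≤ (t / 2) * β + (1 / (2 * t)) * a) : v ^ 2 / C ≤ a := by
  have h1 := h (v / (C * μ)) (by positivity)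
  have h2 : (v / (C * μ) / 2) * β ≤ (v / (C * μ) / 2) * (C * μ ^ 2) :=
    mul_le_mul_of_nonneg_left hβ (by positivity)
  have e1 : (v / (C * μ) / 2) * (C * μ ^ 2) = v * μ / 2 := by
    field_simp
  have e2 : 1 / (2 * (v / (C * μ))) = (C * μ) / (2 * v) := by
    field_simp
  rw [e2] at h1
  have h3 : v * μ / 2 ≤ (C * μ) / (2 * v) * a := by linarith
  have h4 : v ^ 2 / C ≤ a := by
    rw [div_le_iff₀ hC]
    have h5 : (C * μ) / (2 * v) * a = (a * C) * (μ / (2 * v)) := by
      field_simp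
    rw [h5] at h3
    have h6 : v * μ / 2 = v ^ 2 * (μ / (2 * v)) := by
      field_simp
    rw [h6] at h3
    exact le_of_mul_le_mul_right h3 (by positivity)
  exact h4

end

end KS

end Vale.Agent.P154
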