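import Vale.Agent.P154.KS.Reg

/-!
The threshold of reconstruction for `q = 3` and `q = 4`, from nonreconstruction at and below the
Kesten-Stigum bound.
-/

namespace Vale.Agent.P154

namespace KS

open Filter Topology

/-- The dichotomy on both tree models for `q` and the range of `lam` given by `lam0 ≤ lam`. -/
def Dichotomy (q : ℕ) (lam0 : ℝ) : Prop :=
  (∀ d : ℕ, 2 ≤ d → ∀ lam : ℝ, lam0 ≤ lam → lam ≤ 1 →
    ((d : ℝ) * lam ^ 2 ≤ 1 → Tendsto (reconA q d lam) atTop (𝓝 0)) ∧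
    (1 < (d : ℝ) * lam ^ 2 → ∃ c : ℝ, 0 < c ∧ ∀ n, c ≤ reconA q d lam n))
  ∧ (∀ d : ℝ, 0 < d → ∀ lam : ℝ, lam0 ≤ lam → lam ≤ 1 →
    (∀ n, Summable fun T : DTree n => T.prob (poissonWeight d) * T.treeA q lam) ∧
    (d * lam ^ 2 ≤ 1 → Tendsto (gwA q (poissonWeight d) lam) atTop (𝓝 0)) ∧
    (1 < d * lam ^ 2 → ∃ c : ℝ, 0 < c ∧ ∀ n, c ≤ gwA q (poissonWeight d) lam n))

theorem dichotomy_of_nonrecon {q : ℕ} (hq : 2 ≤ q) {lam0 : ℝ} (h00 : -(1 / ((q : ℝ) - 1)) ≤ lam0)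
    (hR : ∀ d : ℕ, 2 ≤ d → ∀ lam : ℝ, lam0 ≤ lam → (d : ℝ) * lam ^ 2 ≤ 1 →
      Tendsto (reconA q d lam) atTop (𝓝 0))
    (hP : ∀ d : ℝ, 0 < d → ∀ lam : ℝ, lam0 ≤ lam → lam ≤ 1 → d * lam ^ 2 ≤ 1 →
      (∀ n, Summable fun T : DTree n => T.prob (poissonWeight d) * T.treeA q lam)
      ∧ Tendsto (gwA q (poissonWeight d) lam) atTop (𝓝 0)) :
    Dichotomy q lam0 := by
  refine ⟨fun d hd lam h0 h1 => ⟨hR d hd lam h0, fun h => ?_⟩, fun d hd lam h0 h1 =>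
    ⟨summable_poisson hq hd (h00.trans h0) h1, fun h => (hP d hd lam h0 h1 h).2, fun h => ?_⟩⟩
  · exact ks_regular hq (h00.trans h0) h1 h
  · obtain ⟨c, hc, hle⟩ := ks_poisson hq hd (h00.trans h0) h1 h
    exact ⟨c, hc, fun n => (hle n).2⟩

end KS

end Vale.Agent.P154
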