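import Vale.Agent.P154.KS.Tree

/-!
The Kesten-Stigum bound for the Potts channel on the rooted `d`-ary tree, and the final forms.
-/

namespace Vale.Agent.P154

namespace KS

noncomputable section

open Finset Filter Topology

variable {q : ℕ}

theorem Sys.comp_equiv {e : Fin q} {Ω Ω' : Type} [Fintype Ω] [Fintype Ω'] {L : Ω → Fin q → ℝ}
    {f : Ω → ℝ} {A B : ℝ} (h : Sys e L f A B) (E : Ω' ≃ Ω) :
    Sys e (fun ω i => L (E ω) i) (fun ω => f (E ω)) A B where
  nonneg := fun ω i => h.nonneg (E ω) i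
  norm := fun i => by rw [← h.norm i]; exact Equiv.sum_comp E (fun ω => L ω i)
  m1 := fun i => by rw [← h.m1 i]; exact Equiv.sum_comp E (fun ω => L ω i * f ω)
  m2 := by
    rw [← h.m2]
    congr 1
    refine Finset.sum_congr rfl fun i _ => ?_
    exact Equiv.sum_comp E (fun ω => L ω i * (f ω) ^ 2)

/-- Words of length `n + 1`, split by the first letter. -/
def splitQ (q d n : ℕ) :
    ((Fin (n + 1) → Fin d) → Fin q) ≃ (Fin d → ((Fin n → Fin d) → Fin q)) where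
  toFun τ := fun c path => τ (Fin.cons c path)
  invFun f := fun path => f (path 0) (Fin.tail path)
  left_inv τ := by
    funext path
    simp
  right_inv f := by
    funext c path
    simp

/-- The configurations at depth zero. -/
def zeroQ (q d : ℕ) : ((Fin 0 → Fin d) → Fin q) ≃ Fin q where
  toFun τ := τ Fin.elim0
  invFun s := fun _ => s
  left_inv τ := by
    funext path
    show τ Fin.elim0 = τ path
    rw [Subsingleton.elim path Fin.elim0]
  right_inv s := rfl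

/-- The count statistic on the `d`-ary tree. -/
def statR (e : Fin q) (d : ℕ) (lam : ℝ) : (n : ℕ) → ((Fin n → Fin d) → Fin q) → ℝ
  | 0, τ => gv q e (zeroQ q d τ)
  | n + 1, τ => sgn lam * ∑ c, statR e d lam n (splitQ q d n τ c)

/-- The second moment along the levels of the `d`-ary tree. -/
def betaR (v : ℝ) (d : ℕ) (lam : ℝ) : ℕ → ℝ
  | 0 => v
  | n + 1 => (d : ℝ) * betaR v d lam n
      + v * lam ^ 2 * ((d : ℝ) * ((d : ℝ) - 1) * ((|lam| * (d : ℝ)) ^ n) ^ 2)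

theorem reg_sys (hq : 2 ≤ q) (e : Fin q) {d : ℕ} {lam : ℝ} (h0 : -(1 / ((q : ℝ) - 1)) ≤ lam)
    (h1 : lam ≤ 1) (n : ℕ) :
    Sys e (fun (τ : (Fin n → Fin d) → Fin q) i => leafLik q d lam n i τ) (statR e d lam n)
      ((|lam| * (d : ℝ)) ^ n) (betaR (vv q e) d lam n) := by
  induction n with
  | zero =>
    have h2 := (Sys.leaf e).comp_equiv (zeroQ q d)
    rw [pow_zero]
    refine ⟨fun ω i => ?_, fun i => ?_, fun i => ?_, ?_⟩
    · exact h2.nonneg ω i
    · exact h2.norm i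
    · exact h2.m1 i
    · exact h2.m2
  | succ n ih =>
    have h2 := Sys.node (Ω := fun _ : Fin d => (Fin n → Fin d) → Fin q) e hq h0 h1 (sgn_mul lam)
      (sgn_sq lam) (L := fun _ τ i => leafLik q d lam n i τ) (f := fun _ => statR e d lam n)
      (A := fun _ => (|lam| * (d : ℝ)) ^ n) (B := fun _ => betaR (vv q e) d lam n) (fun _ => ih)
    have h3 := h2.comp_equiv (splitQ q d n)
    have e1 : |lam| * ∑ _c : Fin d, (|lam| * (d : ℝ)) ^ n = (|lam| * (d : ℝ)) ^ (n + 1) := by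
      simp only [Finset.sum_const, Finset.card_univ, Fintype.card_fin, nsmul_eq_mul]
      rw [pow_succ]
      ring
    have e2 : ∑ _c : Fin d, betaR (vv q e) d lam n
        + vv q e * lam ^ 2 * pairs (fun _ : Fin d => (|lam| * (d : ℝ)) ^ n)
        = betaR (vv q e) d lam (n + 1) := by
      rw [pairs_const]
      simp only [Finset.sum_const, Finset.card_univ, Fintype.card_fin, nsmul_eq_mul]
      rfl
    rw [e1, e2] at h3
    exact h3

theorem reconA_eq_aOf (d : ℕ) (lam : ℝ) (n : ℕ) :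
    reconA q d lam n = aOf (fun (τ : (Fin n → Fin d) → Fin q) i => leafLik q d lam n i τ) := rfl

theorem betaR_le {v : ℝ} {d : ℕ} {lam : ℝ} (hv : 0 < v) (h : 1 < (d : ℝ) * lam ^ 2) (n : ℕ) :
    betaR v d lam n ≤ constC v d lam * ((|lam| * (d : ℝ)) ^ n) ^ 2 := by
  induction n with
  | zero =>
    simpa [betaR] using v_le_constC hv h
  | succ n ih =>
    show (d : ℝ) * betaR v d lam n
      + v * lam ^ 2 * ((d : ℝ) * ((d : ℝ) - 1) * ((|lam| * (d : ℝ)) ^ n) ^ 2) ≤ _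
    obtain ⟨M, hM⟩ : ∃ M, M = ((|lam| * (d : ℝ)) ^ n) ^ 2 := ⟨_, rfl⟩
    rw [← hM] at ih ⊢
    have hM0 : 0 ≤ M := by rw [hM]; positivity
    have hd0 : (0 : ℝ) ≤ d := by positivity
    have e2 : ((|lam| * (d : ℝ)) ^ (n + 1)) ^ 2 = lam ^ 2 * (d : ℝ) ^ 2 * M := by
      rw [pow_succ (|lam| * (d : ℝ)) n, mul_pow ((|lam| * (d : ℝ)) ^ n) (|lam| * (d : ℝ)) 2, ← hM,
        mul_pow (|lam|) (d : ℝ) 2, sq_abs]
      ring
    rw [e2]
    have h1 := mul_le_mul_of_nonneg_left ih hd0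
    have h2 := constC_eq (v := v) h
    have h5 : constC v d lam * (lam ^ 2 * (d : ℝ) ^ 2 * M)
        = (d : ℝ) * (constC v d lam * M)
          + (d : ℝ) * (constC v d lam * ((d : ℝ) * lam ^ 2 - 1)) * M := by
      ring
    rw [h2] at h5
    rw [h5]
    have h6 : v * lam ^ 2 * ((d : ℝ) * ((d : ℝ) - 1) * M) ≤ (d : ℝ) * (v * ((d : ℝ) * lam ^ 2)) * M := by
      have h7 : 0 ≤ v * lam ^ 2 * (d : ℝ) * M := by positivity
      nlinarith
    linarith

/-- The Kesten-Stigum bound on the `d`-ary tree. -/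
theorem ks_regular (hq : 2 ≤ q) {d : ℕ} {lam : ℝ} (h0 : -(1 / ((q : ℝ) - 1)) ≤ lam) (h1 : lam ≤ 1)
    (h : 1 < (d : ℝ) * lam ^ 2) : ∃ c : ℝ, 0 < c ∧ ∀ n, c ≤ reconA q d lam n := by
  obtain ⟨e⟩ : Nonempty (Fin q) := ⟨⟨0, by omega⟩⟩
  have hv := vv_pos hq e
  have hC := constC_pos hv h
  refine ⟨(vv q e) ^ 2 / constC (vv q e) d lam, by positivity, fun n => ?_⟩
  have hlam : lam ≠ 0 := by
    intro h2
    rw [h2] at h
    norm_num at h
  have hd : (d : ℝ) ≠ 0 := by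
    intro h2
    rw [h2] at h
    norm_num at h
  have hμ : 0 < (|lam| * (d : ℝ)) ^ n := by
    have h2 : 0 < |lam| := abs_pos.2 hlam
    have h3 : 0 < (d : ℝ) := lt_of_le_of_ne (by positivity) (Ne.symm hd)
    positivity
  rw [reconA_eq_aOf]
  refine lower_of_bound hv hμ hC (betaR_le hv h n) fun t ht => ?_
  have hS := (reg_sys (d := d) hq e h0 h1 n).lower ht
  rwa [abs_of_pos hμ] at hS

/-- On the `d`-ary tree, `a_n` does not tend to zero above the Kesten-Stigum bound. -/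
theorem not_tendsto_regular (hq : 2 ≤ q) {d : ℕ} {lam : ℝ} (h0 : -(1 / ((q : ℝ) - 1)) ≤ lam)
    (h1 : lam ≤ 1) (h : 1 < (d : ℝ) * lam ^ 2) :
    ¬ Tendsto (reconA q d lam) atTop (𝓝 0) := by
  obtain ⟨c, hc, hle⟩ := ks_regular hq h0 h1 h
  intro ht
  have := ge_of_tendsto' ht hle
  linarith

/-- On the Poisson tree, `a_n` does not tend to zero above the Kesten-Stigum bound. -/
theorem not_tendsto_poisson (hq : 2 ≤ q) {d : ℝ} (hd : 0 < d) {lam : ℝ}
    (h0 : -(1 / ((q : ℝ) - 1)) ≤ lam) (h1 : lam ≤ 1) (h : 1 < d * lam ^ 2) :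
    ¬ Tendsto (gwA q (poissonWeight d) lam) atTop (𝓝 0) := by
  obtain ⟨c, hc, hle⟩ := ks_poisson hq hd h0 h1 h
  intro ht
  have := ge_of_tendsto' ht (fun n => (hle n).2)
  linarith

/-- The dichotomy on the `d`-ary tree, from nonreconstruction at and below the bound. -/
theorem iff_regular (hq : 2 ≤ q) {d : ℕ} {lam : ℝ} (h0 : -(1 / ((q : ℝ) - 1)) ≤ lam) (h1 : lam ≤ 1)
    (hn : (d : ℝ) * lam ^ 2 ≤ 1 → Tendsto (reconA q d lam) atTop (𝓝 0)) :
    Tendsto (reconA q d lam) atTop (𝓝 0) ↔ (d : ℝ) * lam ^ 2 ≤ 1 := by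
  refine ⟨fun ht => ?_, hn⟩
  by_contra h
  exact not_tendsto_regular hq h0 h1 (not_le.1 h) ht

/-- The dichotomy on the Poisson tree, from nonreconstruction at and below the bound. -/
theorem iff_poisson (hq : 2 ≤ q) {d : ℝ} (hd : 0 < d) {lam : ℝ} (h0 : -(1 / ((q : ℝ) - 1)) ≤ lam)
    (h1 : lam ≤ 1) (hn : d * lam ^ 2 ≤ 1 → Tendsto (gwA q (poissonWeight d) lam) atTop (𝓝 0)) :
    Tendsto (gwA q (poissonWeight d) lam) atTop (𝓝 0) ↔ d * lam ^ 2 ≤ 1 := by
  refine ⟨fun ht => ?_, hn⟩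
  by_contra h
  exact not_tendsto_poisson hq hd h0 h1 (not_le.1 h) ht

/-- The series defining `a_n` on the Poisson tree is summable. -/
theorem summable_poisson (hq : 2 ≤ q) {d : ℝ} (hd : 0 < d) {lam : ℝ} (h0 : -(1 / ((q : ℝ) - 1)) ≤ lam)
    (h1 : lam ≤ 1) (n : ℕ) :
    Summable fun T : DTree n => T.prob (poissonWeight d) * T.treeA q lam := by
  obtain ⟨e⟩ : Nonempty (Fin q) := ⟨⟨0, by omega⟩⟩
  have hw0 := poisson_nonneg hd.le
  have hw := poisson_hasSum d
  refine summable_mul_of_bdd (prob_hasSum hw0 hw n).summable (prob_nonneg hw0) (C := 1) fun T => ?_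
  have hS := tree_sys hq e h0 h1 T
  rw [treeA_eq_aOf, abs_of_nonneg (aOf_nonneg hS.nonneg)]
  exact aOf_le_one hS

end

end KS

end Vale.Agent.P154
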