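import Vale.Agent.P154.KS.Core
import Vale.Agent.P154.GWMain

/-!
The Kesten-Stigum bound for the Potts channel on the Poisson Galton-Watson tree.
-/

namespace Vale.Agent.P154

namespace KS

noncomputable section

open Finset

variable {q : ℕ}

/-- The count statistic of a tree, with the sign of the channel at each level. -/
def statT (e : Fin q) (lam : ℝ) : {n : ℕ} → (T : DTree n) → DTree.Config q T → ℝ
  | _, .leaf, τ => gv q e (τ : Fin q)
  | _, .node _ child, τ => sgn lam * ∑ c, statT e lam (child c) (τ c)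

/-- The first moment of the statistic. -/
def aT (lam : ℝ) : {n : ℕ} → DTree n → ℝ
  | _, .leaf => 1
  | _, .node _ child => |lam| * ∑ c, aT lam (child c)

/-- The second moment of the statistic. -/
def bT (e : Fin q) (lam : ℝ) : {n : ℕ} → DTree n → ℝ
  | _, .leaf => vv q e
  | _, .node _ child =>
      ∑ c, bT e lam (child c) + vv q e * lam ^ 2 * pairs (fun c => aT lam (child c))

theorem aT_nonneg (lam : ℝ) {n : ℕ} (T : DTree n) : 0 ≤ aT lam T := by
  induction T with
  | leaf =>
    show (0 : ℝ) ≤ 1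
    norm_num
  | node k child ih =>
    show 0 ≤ |lam| * ∑ c, aT lam (child c)
    exact mul_nonneg (abs_nonneg _) (Finset.sum_nonneg fun c _ => ih c)

theorem bT_nonneg (hq : 2 ≤ q) (e : Fin q) (lam : ℝ) {n : ℕ} (T : DTree n) : 0 ≤ bT e lam T := by
  induction T with
  | leaf => exact (vv_pos hq e).le
  | node k child ih =>
    show 0 ≤ ∑ c, bT e lam (child c) + vv q e * lam ^ 2 * pairs (fun c => aT lam (child c))
    refine add_nonneg (Finset.sum_nonneg fun c _ => ih c) ?_
    exact mul_nonneg (mul_nonneg (vv_pos hq e).le (by positivity))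
      (pairs_nonneg fun c => aT_nonneg lam (child c))

/-- The moments of the statistic on a fixed tree. -/
theorem tree_sys (hq : 2 ≤ q) (e : Fin q) {lam : ℝ} (h0 : -(1 / ((q : ℝ) - 1)) ≤ lam) (h1 : lam ≤ 1)
    {n : ℕ} (T : DTree n) :
    Sys e (fun (τ : DTree.Config q T) i => DTree.lik q lam T i τ) (statT e lam T) (aT lam T)
      (bT e lam T) := by
  induction T with
  | leaf => exact Sys.leaf e
  | node k child ih =>
    exact Sys.node (Ω := fun c => DTree.Config q (child c)) e hq h0 h1 (sgn_mul lam) (sgn_sq lam) ih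

theorem treeA_eq_aOf (lam : ℝ) {n : ℕ} (T : DTree n) :
    T.treeA q lam = aOf (fun (τ : DTree.Config q T) i => DTree.lik q lam T i τ) := rfl

/-- The bound of the quantity `a_n` of a family of likelihoods. -/
theorem aOf_le_one {e : Fin q} {Ω : Type} [Fintype Ω] {L : Ω → Fin q → ℝ} {f : Ω → ℝ} {A B : ℝ}
    (h : Sys e L f A B) : aOf L ≤ 1 := by
  have hq := q_pos e
  have hsum : ∑ ω, spOf L ω = 1 := by
    unfold spOf
    rw [Finset.sum_comm]
    simp only [← Finset.mul_sum, h.norm, mul_one]
    exact sum_const_inv e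
  rw [← hsum]
  refine Finset.sum_le_sum fun ω _ => ?_
  have hs := spOf_nonneg h.nonneg ω
  rcases eq_or_lt_of_le hs with h0 | h0
  · rw [← h0]
    simp
  · have h2 : ∑ i, |(1 / (q : ℝ)) * L ω i / spOf L ω - 1 / (q : ℝ)| ≤ 2 := by
      have h3 : ∀ i, |(1 / (q : ℝ)) * L ω i / spOf L ω - 1 / (q : ℝ)|
          ≤ (1 / (q : ℝ)) * L ω i / spOf L ω + 1 / (q : ℝ) := by
        intro i
        have h4 : 0 ≤ (1 / (q : ℝ)) * L ω i / spOf L ω :=
          div_nonneg (mul_nonneg (by positivity) (h.nonneg ω i)) hs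
        have h5 : 0 ≤ 1 / (q : ℝ) := by positivity
        rw [abs_le]
        constructor <;> linarith
      refine (Finset.sum_le_sum fun i _ => h3 i).trans ?_
      rw [Finset.sum_add_distrib, sum_const_inv e, ← Finset.sum_div]
      have : ∑ i, (1 / (q : ℝ)) * L ω i = spOf L ω := rfl
      rw [this, div_self h0.ne']
      norm_num
    have h6 : (1 / 2) * ∑ i, |(1 / (q : ℝ)) * L ω i / spOf L ω - 1 / (q : ℝ)| ≤ 1 := by linarith
    exact mul_le_of_le_one_right hs h6

/-! ### Moments over the tree -/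

section Moments

variable {X : Type*}

theorem hs_congr {ι : Type*} {f g : ι → ℝ} {a b : ℝ} (h : HasSum g b) (e : ∀ x, f x = g x) (hb : a = b) :
    HasSum f a := by
  have : f = g := funext e
  rw [this, hb]
  exact h

theorem hasSum_pi_prod {k : ℕ} (u : Fin k → X → ℝ) (m : Fin k → ℝ) (h0 : ∀ c x, 0 ≤ u c x)
    (h : ∀ c, HasSum (u c) (m c)) : HasSum (fun t : Fin k → X => ∏ c, u c (t c)) (∏ c, m c) := by
  induction k with
  | zero =>
    simp only [Finset.univ_eq_empty, Finset.prod_empty]
    exact hasSum_unique (fun _ : Fin 0 → X => (1 : ℝ))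
  | succ k ih =>
    have ih' : HasSum (fun t : Fin k → X => ∏ c : Fin k, u c.succ (t c)) (∏ c : Fin k, m c.succ) :=
      ih (fun c => u c.succ) (fun c => m c.succ) (fun c x => h0 c.succ x) (fun c => h c.succ)
    have hn : ∀ t : Fin k → X, 0 ≤ ∏ c : Fin k, u c.succ (t c) :=
      fun t => Finset.prod_nonneg fun c _ => h0 _ _
    have hs : Summable (fun z : X × (Fin k → X) => u 0 z.1 * ∏ c : Fin k, u c.succ (z.2 c)) :=
      Summable.mul_of_nonneg (f := u 0) (g := fun t : Fin k → X => ∏ c : Fin k, u c.succ (t c))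
        (h 0).summable ih'.summable (h0 0) hn
    have hprod : HasSum (fun z : X × (Fin k → X) => u 0 z.1 * ∏ c : Fin k, u c.succ (z.2 c))
        (m 0 * ∏ c : Fin k, m c.succ) :=
      HasSum.mul (f := u 0) (g := fun t : Fin k → X => ∏ c : Fin k, u c.succ (t c)) (h 0) ih' hs
    rw [Fin.prod_univ_succ]
    refine ((Fin.consEquiv (fun _ : Fin (k + 1) => X)).hasSum_iff).1 ?_
    refine hs_congr hprod (fun z => ?_) rfl
    simp [Fin.consEquiv, Fin.prod_univ_succ]

variable {p h : X → ℝ} {m : ℝ}

theorem hasSum_coord (hp0 : ∀ x, 0 ≤ p x) (hp : HasSum p 1) (h0 : ∀ x, 0 ≤ h x)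
    (hh : HasSum (fun x => p x * h x) m) {k : ℕ} (c : Fin k) :
    HasSum (fun t : Fin k → X => prodW p k t * h (t c)) m := by
  have h1 := hasSum_pi_prod (fun b x => p x * (if b = c then h x else 1))
    (fun b => if b = c then m else 1) (fun b x => by
      split_ifs
      · exact mul_nonneg (hp0 x) (h0 x)
      · simpa using hp0 x) (fun b => by
      by_cases hb : b = c
      · simpa [hb] using hh
      · simpa [hb] using hp)
  rw [Finset.prod_ite_eq' Finset.univ c] at h1
  simp only [Finset.mem_univ, if_true] at h1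
  refine hs_congr h1 (fun t => ?_) rfl
  unfold prodW
  rw [Finset.prod_mul_distrib, Finset.prod_ite_eq' Finset.univ c]
  simp

theorem hasSum_coord2 (hp0 : ∀ x, 0 ≤ p x) (hp : HasSum p 1) (h0 : ∀ x, 0 ≤ h x)
    (hh : HasSum (fun x => p x * h x) m) {k : ℕ} {c c' : Fin k} (hne : c ≠ c') :
    HasSum (fun t : Fin k → X => prodW p k t * (h (t c) * h (t c'))) (m ^ 2) := by
  have h1 := hasSum_pi_prod (fun b x => p x * ((if b = c then h x else 1) * (if b = c' then h x else 1)))
    (fun b => (if b = c then m else 1) * (if b = c' then m else 1)) (fun b x => by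
      refine mul_nonneg (hp0 x) (mul_nonneg ?_ ?_) <;> split_ifs <;> first | exact h0 x | norm_num)
      (fun b => by
      by_cases hb : b = c
      · have hb' : b ≠ c' := by rw [hb]; exact hne
        simpa [hb, hne] using hh
      · by_cases hb' : b = c'
        · simpa [hb', Ne.symm hne] using hh
        · simpa [hb, hb'] using hp)
  rw [Finset.prod_mul_distrib, Finset.prod_ite_eq' Finset.univ c, Finset.prod_ite_eq' Finset.univ c'] at h1
  simp only [Finset.mem_univ, if_true] at h1
  rw [sq]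
  refine hs_congr h1 (fun t => ?_) rfl
  unfold prodW
  rw [Finset.prod_mul_distrib, Finset.prod_mul_distrib, Finset.prod_ite_eq' Finset.univ c,
    Finset.prod_ite_eq' Finset.univ c']
  simp

theorem hasSum_sumCoord (hp0 : ∀ x, 0 ≤ p x) (hp : HasSum p 1) (h0 : ∀ x, 0 ≤ h x)
    (hh : HasSum (fun x => p x * h x) m) (k : ℕ) :
    HasSum (fun t : Fin k → X => prodW p k t * ∑ c, h (t c)) ((k : ℝ) * m) := by
  have h1 := hasSum_sum (s := Finset.univ) (fun (c : Fin k) _ => hasSum_coord hp0 hp h0 hh c)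
  simp only [Finset.sum_const, Finset.card_univ, Fintype.card_fin, nsmul_eq_mul] at h1
  refine hs_congr h1 (fun t => ?_) rfl
  rw [Finset.mul_sum]

theorem pairs_const {k : ℕ} (a : ℝ) :
    pairs (fun _ : Fin k => a) = (k : ℝ) * ((k : ℝ) - 1) * a ^ 2 := by
  unfold pairs
  have h3 : ∀ c : Fin k, ∑ c' : Fin k, (if c = c' then 0 else a * a) = ((k : ℝ) - 1) * a ^ 2 := by
    intro c
    have h4 : ∑ c' : Fin k, (a * a) = a * a + ∑ c' : Fin k, (if c = c' then 0 else a * a) := by
      rw [← Finset.add_sum_erase Finset.univ (fun _ : Fin k => a * a) (Finset.mem_univ c),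
        ← Finset.add_sum_erase Finset.univ (fun c' : Fin k => if c = c' then (0 : ℝ) else a * a)
          (Finset.mem_univ c)]
      simp only [if_true, zero_add]
      congr 1
      refine Finset.sum_congr rfl fun c' hc' => ?_
      rw [if_neg (Finset.ne_of_mem_erase hc').symm]
    have h5 : ∑ c' : Fin k, (a * a) = (k : ℝ) * a ^ 2 := by
      simp [sq]
    rw [h5] at h4
    linarith
  simp only [h3]
  simp only [Finset.sum_const, Finset.card_univ, Fintype.card_fin, nsmul_eq_mul]
  ring

theorem hasSum_pairs (hp0 : ∀ x, 0 ≤ p x) (hp : HasSum p 1) (h0 : ∀ x, 0 ≤ h x)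
    (hh : HasSum (fun x => p x * h x) m) (k : ℕ) :
    HasSum (fun t : Fin k → X => prodW p k t * pairs (fun c => h (t c)))
      ((k : ℝ) * ((k : ℝ) - 1) * m ^ 2) := by
  have h1 : HasSum (fun t : Fin k → X => ∑ c : Fin k, ∑ c' : Fin k,
      prodW p k t * (if c = c' then 0 else h (t c) * h (t c')))
      (∑ c : Fin k, ∑ c' : Fin k, if c = c' then 0 else m * m) := by
    refine hasSum_sum (s := Finset.univ) (fun c _ => hasSum_sum (s := Finset.univ) (fun c' _ => ?_))
    by_cases hc : c = c'
    · simp only [if_pos hc, mul_zero]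
      exact hasSum_zero
    · simp only [if_neg hc]
      have := hasSum_coord2 hp0 hp h0 hh hc
      rwa [sq] at this
  have e1 : (∑ c : Fin k, ∑ c' : Fin k, if c = c' then 0 else m * m)
      = (k : ℝ) * ((k : ℝ) - 1) * m ^ 2 := pairs_const (k := k) m
  rw [e1] at h1
  refine hs_congr h1 (fun t => ?_) rfl
  unfold pairs
  rw [Finset.mul_sum]
  refine Finset.sum_congr rfl fun c _ => ?_
  rw [Finset.mul_sum]

end Moments

/-- A nonnegative function on trees of height `n + 1`. -/
theorem gw_hasSum_nonneg {w : ℕ → ℝ} (hw0 : ∀ k, 0 ≤ w k) {n : ℕ} {F : DTree (n + 1) → ℝ}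
    (hF : ∀ T, 0 ≤ F T) {G : ℕ → ℝ} {a : ℝ}
    (hfib : ∀ k, HasSum (fun t : Fin k → DTree n =>
      prodW (fun T : DTree n => T.prob w) k t * F (DTree.node k t)) (G k))
    (hG : HasSum (fun k => w k * G k) a) :
    HasSum (fun T : DTree (n + 1) => T.prob w * F T) a := by
  obtain ⟨p, hpd⟩ : ∃ p : DTree n → ℝ, p = fun T => T.prob w := ⟨_, rfl⟩
  rw [← hpd] at hfib
  have hp0 : ∀ T, 0 ≤ p T := fun T => by rw [hpd]; exact prob_nonneg hw0 T
  have hg0 : ∀ z : (Σ k : ℕ, (Fin k → DTree n)),
      0 ≤ w z.1 * (prodW p z.1 z.2 * F (DTree.node z.1 z.2)) :=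
    fun z => mul_nonneg (hw0 _) (mul_nonneg (prodW_nonneg hp0 _ _) (hF _))
  have hfib' : ∀ k, HasSum (fun t : Fin k → DTree n =>
      w k * (prodW p k t * F (DTree.node k t))) (w k * G k) := fun k => (hfib k).mul_left (w k)
  have hs : Summable fun z : (Σ k : ℕ, (Fin k → DTree n)) =>
      w z.1 * (prodW p z.1 z.2 * F (DTree.node z.1 z.2)) := by
    rw [summable_sigma_of_nonneg hg0]
    refine ⟨fun k => (hfib' k).summable, ?_⟩
    have e : (fun k => ∑' t : Fin k → DTree n, w k * (prodW p k t * F (DTree.node k t)))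
        = fun k => w k * G k := by
      funext k
      exact (hfib' k).tsum_eq
    show Summable fun k => ∑' t : Fin k → DTree n, w k * (prodW p k t * F (DTree.node k t))
    rw [e]
    exact hG.summable
  have hall := HasSum.sigma_of_hasSum hG hfib' hs
  refine ((nodeEquiv n).hasSum_iff).1 ?_
  refine hs_congr hall (fun z => ?_) rfl
  show (DTree.node z.1 z.2).prob w * F (DTree.node z.1 z.2) = _
  simp only [DTree.prob, prodW, hpd]
  ring

theorem dtree_zero_hasSum {w : ℕ → ℝ} (F : DTree 0 → ℝ) :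
    HasSum (fun T : DTree 0 => T.prob w * F T) (F DTree.leaf) := by
  have hu : ∀ T : DTree 0, T = DTree.leaf := by
    intro T
    cases T
    rfl
  have : Unique (DTree 0) := ⟨⟨DTree.leaf⟩, hu⟩
  have h := hasSum_unique (fun T : DTree 0 => T.prob w * F T)
  have e : (default : DTree 0).prob w * F default = F DTree.leaf := by
    rw [hu default]
    show 1 * F DTree.leaf = _
    rw [one_mul]
  rwa [e] at h

/-- The second factorial moment of the Poisson law. -/
theorem poisson_fact2 (d : ℝ) :
    HasSum (fun k : ℕ => poissonWeight d k * ((k : ℝ) * ((k : ℝ) - 1))) (d ^ 2) := by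
  have h := (poisson_hasSum d).mul_left (d ^ 2)
  rw [mul_one] at h
  have key : HasSum (fun n : ℕ => poissonWeight d (n + 2) * (((n + 2 : ℕ) : ℝ) * (((n + 2 : ℕ) : ℝ) - 1)))
      (d ^ 2) := by
    have e : (fun n : ℕ => poissonWeight d (n + 2) * (((n + 2 : ℕ) : ℝ) * (((n + 2 : ℕ) : ℝ) - 1)))
        = fun n : ℕ => d ^ 2 * poissonWeight d n := by
      funext n
      unfold poissonWeight
      have h1 : (((n + 2).factorial : ℕ) : ℝ) = ((n : ℝ) + 2) * (((n : ℝ) + 1) * (n.factorial : ℝ)) := by
        rw [Nat.factorial_succ, Nat.factorial_succ]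
        push_cast
        ring
      have h2 : (n.factorial : ℝ) ≠ 0 := by
        exact_mod_cast n.factorial_ne_zero
      have h3 : ((n : ℝ) + 1) ≠ 0 := by positivity
      have h4 : ((n : ℝ) + 2) ≠ 0 := by positivity
      rw [h1]
      push_cast
      field_simp
      ring
    rw [e]
    exact h
  have := (hasSum_nat_add_iff (f := fun k : ℕ => poissonWeight d k * ((k : ℝ) * ((k : ℝ) - 1)))
    (g := d ^ 2) 2).1 key
  simpa [Finset.sum_range_succ] using this

/-- The first moment along the levels. -/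
def muN (d lam : ℝ) (n : ℕ) : ℝ := (|lam| * d) ^ n

/-- The second moment along the levels. -/
def betaN (v d lam : ℝ) : ℕ → ℝ
  | 0 => v
  | n + 1 => d * betaN v d lam n + v * lam ^ 2 * d ^ 2 * (muN d lam n) ^ 2

theorem hasSum_aT {d : ℝ} (hd : 0 ≤ d) (lam : ℝ) (n : ℕ) :
    HasSum (fun T : DTree n => T.prob (poissonWeight d) * aT lam T) (muN d lam n) := by
  have hw0 := poisson_nonneg hd
  have hw := poisson_hasSum d
  induction n with
  | zero =>
    have e : muN d lam 0 = aT lam DTree.leaf := by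
      simp [muN, aT]
    rw [e]
    exact dtree_zero_hasSum (w := poissonWeight d) (fun T : DTree 0 => aT lam T)
  | succ n ih =>
    refine gw_hasSum_nonneg hw0 (F := fun T => aT lam T) (fun T => aT_nonneg lam T)
      (G := fun k => |lam| * ((k : ℝ) * muN d lam n)) (fun k => ?_) ?_
    · have h1 := (hasSum_sumCoord (prob_nonneg hw0) (prob_hasSum hw0 hw n)
        (fun T => aT_nonneg lam T) ih k).mul_left |lam|
      refine hs_congr h1 (fun t => ?_) rfl
      show prodW _ k t * (|lam| * ∑ c, aT lam (t c)) = _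
      ring
    · have h1 := (poisson_mean d).mul_left (|lam| * muN d lam n)
      have e : muN d lam (n + 1) = |lam| * muN d lam n * d := by
        unfold muN
        rw [pow_succ]
        ring
      rw [e]
      refine hs_congr h1 (fun k => ?_) rfl
      ring

theorem hasSum_bT (hq : 2 ≤ q) (e : Fin q) {d : ℝ} (hd : 0 ≤ d) (lam : ℝ) (n : ℕ) :
    HasSum (fun T : DTree n => T.prob (poissonWeight d) * bT e lam T)
      (betaN (vv q e) d lam n) := by
  have hw0 := poisson_nonneg hd
  have hw := poisson_hasSum d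
  induction n with
  | zero =>
    exact dtree_zero_hasSum (w := poissonWeight d) (fun T : DTree 0 => bT e lam T)
  | succ n ih =>
    refine gw_hasSum_nonneg hw0 (F := fun T => bT e lam T) (fun T => bT_nonneg hq e lam T)
      (G := fun k => (k : ℝ) * betaN (vv q e) d lam n
        + vv q e * lam ^ 2 * ((k : ℝ) * ((k : ℝ) - 1) * (muN d lam n) ^ 2)) (fun k => ?_) ?_
    · have h1 := hasSum_sumCoord (prob_nonneg hw0) (prob_hasSum hw0 hw n)
        (fun T => bT_nonneg hq e lam T) ih k
      have h2 := (hasSum_pairs (prob_nonneg hw0) (prob_hasSum hw0 hw n)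
        (fun T => aT_nonneg lam T) (hasSum_aT hd lam n) k).mul_left (vv q e * lam ^ 2)
      have h3 := h1.add h2
      refine hs_congr h3 (fun t => ?_) rfl
      show prodW _ k t * (∑ c, bT e lam (t c) + vv q e * lam ^ 2 * pairs (fun c => aT lam (t c))) = _
      ring
    · have h1 := (poisson_mean d).mul_right (betaN (vv q e) d lam n)
      have h2 := (poisson_fact2 d).mul_right (vv q e * lam ^ 2 * (muN d lam n) ^ 2)
      have h3 := h1.add h2
      have e1 : betaN (vv q e) d lam (n + 1)
          = d * betaN (vv q e) d lam n + d ^ 2 * (vv q e * lam ^ 2 * (muN d lam n) ^ 2) := by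
        show d * betaN (vv q e) d lam n + vv q e * lam ^ 2 * d ^ 2 * (muN d lam n) ^ 2 = _
        ring
      refine hs_congr h3 (fun k => ?_) ?_
      · ring
      · rw [e1]

/-- The constant of the second moment. -/
def constC (v d lam : ℝ) : ℝ := v * (d * lam ^ 2) / (d * lam ^ 2 - 1)

theorem constC_eq {v d lam : ℝ} (h : 1 < d * lam ^ 2) :
    constC v d lam * (d * lam ^ 2 - 1) = v * (d * lam ^ 2) := by
  unfold constC
  have : d * lam ^ 2 - 1 ≠ 0 := by linarith
  field_simp

theorem constC_pos {v d lam : ℝ} (hv : 0 < v) (h : 1 < d * lam ^ 2) : 0 < constC v d lam := by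
  unfold constC
  have h1 : 0 < d * lam ^ 2 - 1 := by linarith
  have h2 : 0 < d * lam ^ 2 := by linarith
  positivity

theorem v_le_constC {v d lam : ℝ} (hv : 0 < v) (h : 1 < d * lam ^ 2) : v ≤ constC v d lam := by
  unfold constC
  have h1 : 0 < d * lam ^ 2 - 1 := by linarith
  rw [le_div_iff₀ h1]
  nlinarith

theorem betaN_le {v d lam : ℝ} (hv : 0 < v) (hd : 0 ≤ d) (h : 1 < d * lam ^ 2) (n : ℕ) :
    betaN v d lam n ≤ constC v d lam * (muN d lam n) ^ 2 := by
  induction n with
  | zero =>
    simpa [betaN, muN] using v_le_constC hv h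
  | succ n ih =>
    show d * betaN v d lam n + v * lam ^ 2 * d ^ 2 * (muN d lam n) ^ 2 ≤ _
    have e1 : muN d lam (n + 1) = |lam| * d * muN d lam n := by
      unfold muN
      rw [pow_succ]
      ring
    have e2 : (muN d lam (n + 1)) ^ 2 = lam ^ 2 * d ^ 2 * (muN d lam n) ^ 2 := by
      rw [e1, mul_pow, mul_pow, sq_abs]
    rw [e2]
    have h1 := mul_le_mul_of_nonneg_left ih hd
    have h2 := constC_eq (v := v) h
    have h3 : 0 ≤ (muN d lam n) ^ 2 := sq_nonneg _
    have h4 : constC v d lam * (lam ^ 2 * d ^ 2) * (muN d lam n) ^ 2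
        = d * (constC v d lam * (muN d lam n) ^ 2)
          + d * (constC v d lam * (d * lam ^ 2 - 1)) * (muN d lam n) ^ 2 := by
      ring
    rw [h2] at h4
    have h5 : constC v d lam * (lam ^ 2 * d ^ 2 * (muN d lam n) ^ 2)
        = d * (constC v d lam * (muN d lam n) ^ 2) + d * (v * (d * lam ^ 2)) * (muN d lam n) ^ 2 := by
      rw [← h4]
      ring
    rw [h5]
    have h6 : v * lam ^ 2 * d ^ 2 * (muN d lam n) ^ 2 = d * (v * (d * lam ^ 2)) * (muN d lam n) ^ 2 := by
      ring
    linarith

/-- The Kesten-Stigum bound on the Poisson Galton-Watson tree, with an explicit constant. -/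
theorem ks_poisson (hq : 2 ≤ q) {d : ℝ} (hd : 0 < d) {lam : ℝ} (h0 : -(1 / ((q : ℝ) - 1)) ≤ lam)
    (h1 : lam ≤ 1) (h : 1 < d * lam ^ 2) :
    ∃ c : ℝ, 0 < c ∧ ∀ n, (∀ n, Summable fun T : DTree n =>
      T.prob (poissonWeight d) * T.treeA q lam) ∧ c ≤ gwA q (poissonWeight d) lam n := by
  obtain ⟨e⟩ : Nonempty (Fin q) := ⟨⟨0, by omega⟩⟩
  have hv := vv_pos hq e
  have hw0 := poisson_nonneg hd.le
  have hw := poisson_hasSum d
  have hC := constC_pos hv h
  have hsum : ∀ n, Summable fun T : DTree n => T.prob (poissonWeight d) * T.treeA q lam := by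
    intro n
    refine summable_mul_of_bdd (prob_hasSum hw0 hw n).summable (prob_nonneg hw0) (C := 1) fun T => ?_
    have hS := tree_sys hq e h0 h1 T
    rw [treeA_eq_aOf, abs_of_nonneg (aOf_nonneg hS.nonneg)]
    exact aOf_le_one hS
  refine ⟨(vv q e) ^ 2 / constC (vv q e) d lam, by positivity, fun n => ⟨hsum, ?_⟩⟩
  have hlam : lam ≠ 0 := by
    intro h2
    rw [h2] at h
    norm_num at h
  have hμ : 0 < muN d lam n := by
    unfold muN
    have : 0 < |lam| := abs_pos.2 hlam
    positivity
  refine lower_of_bound hv hμ hC (betaN_le hv hd.le h n) fun t ht => ?_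
  have hL := (hasSum_aT hd.le lam n).mul_left (vv q e)
  have hB := (hasSum_bT hq e hd.le lam n).mul_left (t / 2)
  have hA := ((hsum n).hasSum).mul_left (1 / (2 * t))
  have hR := hB.add hA
  refine hasSum_le (fun T => ?_) hL hR
  have hS := (tree_sys hq e h0 h1 T).lower ht
  rw [abs_of_nonneg (aT_nonneg lam T), ← treeA_eq_aOf] at hS
  have hp := prob_nonneg hw0 T
  have := mul_le_mul_of_nonneg_left hS hp
  nlinarith

end

end KS

end Vale.Agent.P154
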